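import Crest.Agent.Helper73.S0151.Weights

set_option autoImplicit false
open Crest.AnalysisR.ProductShift MeasureTheory
open scoped ENNReal

namespace Crest.Agent.Helper73.S0151

/-- one coordinate: `∫_{[0,1)} c ⌊t + θ⌋ dt = c θ` for `0 < θ < 1`, `0 ≤ c`. -/
theorem lintegral_unit_floor (θ c : ℝ) (hθ0 : 0 < θ) (hθ1 : θ < 1) (hc : 0 ≤ c) :
    ∫⁻ t, ENNReal.ofReal (c * (⌊t + θ⌋ : ℝ)) ∂unitLebesgue = ENNReal.ofReal (c * θ) := by
  unfold unitLebesgue
  have h1 : ∀ t ∈ Set.Ico (0 : ℝ) 1, ENNReal.ofReal (c * (⌊t + θ⌋ : ℝ))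
      = (Set.Ico (1 - θ) 1).indicator (fun _ => ENNReal.ofReal c) t := by
    intro t ht
    by_cases h : 1 - θ ≤ t
    · have hfl : ⌊t + θ⌋ = 1 := by
        rw [Int.floor_eq_iff]; constructor
        · push_cast; linarith
        · push_cast; linarith [ht.2]
      rw [Set.indicator_of_mem (show t ∈ Set.Ico (1 - θ) 1 from ⟨h, ht.2⟩), hfl]
      simp
    · have hfl : ⌊t + θ⌋ = 0 := by
        rw [Int.floor_eq_iff]; constructor
        · push_cast; linarith [ht.1]
        · push_cast; linarith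
      rw [Set.indicator_of_notMem (fun hh : t ∈ Set.Ico (1 - θ) 1 => h hh.1), hfl]
      simp
  rw [setLIntegral_congr_fun measurableSet_Ico h1, lintegral_indicator measurableSet_Ico,
    setLIntegral_const, Measure.restrict_apply measurableSet_Ico]
  have hsub : Set.Ico (1 - θ) 1 ∩ Set.Ico (0 : ℝ) 1 = Set.Ico (1 - θ) 1 := by
    apply Set.inter_eq_left.mpr
    intro t ht; exact ⟨by linarith [ht.1], ht.2⟩
  rw [hsub, Real.volume_Ico, ← ENNReal.ofReal_mul hc]
  congr 1; ring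

/-- the drop cost integrates to `∑ c_i θ_i`. -/
theorem lintegral_dropCost (θ c : ℕ → ℝ) (hθ : ∀ i, 0 < θ i ∧ θ i < 1) (hc : ∀ i, 0 ≤ c i) :
    ∫⁻ x, dropCost θ c x ∂cubeMeasure = ∑' i, ENNReal.ofReal (c i * θ i) := by
  unfold dropCost
  have hmeas : ∀ i : ℕ, Measurable (fun t : ℝ => ENNReal.ofReal (c i * (⌊t + θ i⌋ : ℝ))) := by
    intro i
    apply ENNReal.measurable_ofReal.comp
    apply Measurable.const_mul
    have : Measurable (fun t : ℝ => (⌊t + θ i⌋ : ℝ)) :=
      (measurable_from_top (f := fun z : ℤ => (z : ℝ))).comp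
        ((Int.measurable_floor).comp (measurable_id.add_const _))
    exact this
  rw [lintegral_tsum]
  · congr 1; funext i
    have hmp : MeasurePreserving (Function.eval i) cubeMeasure unitLebesgue := by
      unfold cubeMeasure
      exact measurePreserving_eval_infinitePi (fun _ : ℕ => unitLebesgue) i
    have := hmp.lintegral_comp (hmeas i)
    simp only [Function.eval] at this
    rw [this, lintegral_unit_floor (θ i) (c i) (hθ i).1 (hθ i).2 (hc i)]
  · intro i
    exact ((hmeas i).comp (measurable_pi_apply i)).aemeasurable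

/-- `hpos` + `hlog` give `∑ c_i θ_i = ∞`. -/
theorem tsum_cost_eq_top (θ c : ℕ → ℝ) (hθ : ∀ i, 0 < θ i ∧ θ i < 1) (hc : ∀ i, 0 ≤ c i)
    (hpos : ∀ᵐ x ∂cubeMeasure, 0 < weight θ c x)
    (hlog : ∫⁻ x, ENNReal.ofReal (- Real.log (weight θ c x)) ∂cubeMeasure = ⊤) :
    ∑' i, ENNReal.ofReal (c i * θ i) = ⊤ := by
  rw [← lintegral_dropCost θ c hθ hc, ← hlog]
  apply lintegral_congr_ae
  filter_upwards [hpos] with x hx
  have hfin : dropCost θ c x ≠ ⊤ := by
    intro h
    have : weight θ c x = 0 := by unfold weight; rw [if_pos h]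
    linarith
  have hw : weight θ c x = Real.exp (-(dropCost θ c x).toReal) := by
    unfold weight; rw [if_neg hfin]
  rw [hw, Real.log_exp, neg_neg, ENNReal.ofReal_toReal hfin]

/-- partial sums of `c_i θ_i` are unbounded. -/
theorem exists_partial_cost_gt (θ c : ℕ → ℝ) (hθ : ∀ i, 0 < θ i ∧ θ i < 1) (hc : ∀ i, 0 ≤ c i)
    (hpos : ∀ᵐ x ∂cubeMeasure, 0 < weight θ c x)
    (hlog : ∫⁻ x, ENNReal.ofReal (- Real.log (weight θ c x)) ∂cubeMeasure = ⊤) (M : ℝ) :
    ∃ N : ℕ, M < ∑ i ∈ Finset.range N, c i * θ i := by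
  have htop := tsum_cost_eq_top θ c hθ hc hpos hlog
  have htend := ENNReal.tendsto_nat_tsum (fun i => ENNReal.ofReal (c i * θ i))
  rw [htop] at htend
  have hev := (ENNReal.tendsto_nhds_top_iff_nnreal.mp htend) (Real.toNNReal M)
  obtain ⟨N, hN⟩ := hev.exists
  refine ⟨N, ?_⟩
  have hsum : ∑ i ∈ Finset.range N, ENNReal.ofReal (c i * θ i)
      = ENNReal.ofReal (∑ i ∈ Finset.range N, c i * θ i) := by
    rw [ENNReal.ofReal_sum_of_nonneg (fun i _ => mul_nonneg (hc i) (hθ i).1.le)]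
  rw [hsum] at hN
  have h2 : Real.toNNReal M < Real.toNNReal (∑ i ∈ Finset.range N, c i * θ i) := by
    have : ((Real.toNNReal M : NNReal) : ℝ≥0∞)
        < ((Real.toNNReal (∑ i ∈ Finset.range N, c i * θ i) : NNReal) : ℝ≥0∞) := hN
    exact_mod_cast this
  exact (Real.toNNReal_lt_toNNReal_iff'.mp h2).1

end Crest.Agent.Helper73.S0151
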