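import Mathlib
import Crest.Prelude.Def_ProductShift

/-!
# S0151 — leaf A3 (Main), helper73 (second): core of `vectorDet_sub_smul`, with the statements of
the leaves A0, A1, A2 taken as hypotheses (so this file depends on no other leaf).
-/

set_option autoImplicit false
open Crest.AnalysisR.ProductShift
open scoped ComplexConjugate

namespace Crest.Agent.Helper73.S0151

section Abstract

variable {H : Type*} [NormedAddCommGroup H] [InnerProductSpace ℂ H] [CompleteSpace H]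

/-- summability of `‖(z⁻¹ T)^n‖` from the quasinilpotent rate. -/
theorem summable_norm_pow_smul (T : H →L[ℂ] H)
    (hq : ∀ r : ℝ, 0 < r → ∃ n₀ : ℕ, ∀ n ≥ n₀, ‖T ^ n‖ ≤ r ^ n) (z : ℂ) (hz : z ≠ 0) :
    Summable fun n : ℕ => ‖(z⁻¹ • T) ^ n‖ := by
  have hzpos : 0 < ‖z‖ := norm_pos_iff.mpr hz
  obtain ⟨n₀, hn₀⟩ := hq (‖z‖ / 2) (by positivity)
  have hgeo : Summable fun n : ℕ => ((1 : ℝ) / 2) ^ n :=
    summable_geometric_of_lt_one (by norm_num) (by norm_num)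
  refine Summable.of_norm_bounded_eventually_nat hgeo ?_
  filter_upwards [Filter.eventually_ge_atTop n₀] with n hn
  rw [norm_norm, smul_pow, norm_smul, norm_pow, norm_inv]
  have h1 := hn₀ n hn
  calc (‖z‖⁻¹) ^ n * ‖T ^ n‖ ≤ (‖z‖⁻¹) ^ n * (‖z‖ / 2) ^ n :=
        mul_le_mul_of_nonneg_left h1 (by positivity)
    _ = ((1 : ℝ) / 2) ^ n := by
        rw [← mul_pow]; congr 1; field_simp

/-- CORE of leaf A3: the case `z ≠ 0`, from the statements of A0 (two facts), A1 and A2. -/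
theorem vectorDet_sub_smul_core (ξ : H) (hξ : ‖ξ‖ = 1) (T : H →L[ℂ] H)
    (hq : ∀ r : ℝ, 0 < r → ∃ n₀ : ℕ, ∀ n ≥ n₀, ‖T ^ n‖ ≤ r ^ n)
    (htr : ∀ P ∈ StarAlgebra.adjoin ℂ {T}, ∀ Q ∈ StarAlgebra.adjoin ℂ {T},
      inner ℂ ξ ((P * Q) ξ) = inner ℂ ξ ((Q * P) ξ))
    (hmom : ∀ n : ℕ, 1 ≤ n → inner ℂ ξ ((T ^ n) ξ) = 0) (z : ℂ) (hz : z ≠ 0)
    (hA0 : ∀ (B : H →L[ℂ] H), (Summable fun n : ℕ => ‖B ^ n‖) →
      ∀ v : H, ‖v‖ ≤ (∑' n : ℕ, ‖B ^ n‖) * ‖(1 - B) v‖)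
    (hA0' : ∀ (A : H →L[ℂ] H) (a : ℝ), 0 ≤ a → (∀ v, a * ‖v‖ ≤ ‖A v‖) →
      spectrum ℝ (star A * A) ⊆ Set.Icc (a ^ 2) (‖A‖ ^ 2))
    (hA1 : ∀ (A : H →L[ℂ] H) (a : ℝ), 0 < a → (∀ v, a * ‖v‖ ≤ ‖A v‖) →
      vectorDet ξ A = Real.exp (RCLike.re (inner ℂ ξ (cfc Real.log (star A * A) ξ)) / 2))
    (hA2 : ∀ (B : H →L[ℂ] H), (Summable fun n : ℕ => ‖B ^ n‖) →
      (∀ P ∈ StarAlgebra.adjoin ℂ {B}, ∀ Q ∈ StarAlgebra.adjoin ℂ {B},
        inner ℂ ξ ((P * Q) ξ) = inner ℂ ξ ((Q * P) ξ)) →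
      (∀ n : ℕ, 1 ≤ n → inner ℂ ξ ((B ^ n) ξ) = 0) →
      inner ℂ ξ (cfc Real.log (star (1 - B) * (1 - B)) ξ) = 0) :
    vectorDet ξ (T - z • (1 : H →L[ℂ] H)) = ‖z‖ := by
  have hzpos : 0 < ‖z‖ := norm_pos_iff.mpr hz
  set B : H →L[ℂ] H := z⁻¹ • T with hB
  have hBsum : Summable fun n : ℕ => ‖B ^ n‖ := summable_norm_pow_smul T hq z hz
  -- the trace property and the moments pass to `B`
  have hBmem : B ∈ StarAlgebra.adjoin ℂ {T} :=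
    (StarAlgebra.adjoin ℂ {T}).smul_mem (StarAlgebra.self_mem_adjoin_singleton ℂ T) z⁻¹
  have hle : StarAlgebra.adjoin ℂ {B} ≤ StarAlgebra.adjoin ℂ {T} :=
    StarAlgebra.adjoin_le (by simpa using hBmem)
  have htrB : ∀ P ∈ StarAlgebra.adjoin ℂ {B}, ∀ Q ∈ StarAlgebra.adjoin ℂ {B},
      inner ℂ ξ ((P * Q) ξ) = inner ℂ ξ ((Q * P) ξ) :=
    fun P hP Q hQ => htr P (hle hP) Q (hle hQ)
  have hmomB : ∀ n : ℕ, 1 ≤ n → inner ℂ ξ ((B ^ n) ξ) = 0 := by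
    intro n hn
    rw [hB, smul_pow, smul_apply, inner_smul_right, hmom n hn, mul_zero]
  have hfk := hA2 B hBsum htrB hmomB
  -- bounded below
  set S : ℝ := ∑' n : ℕ, ‖B ^ n‖ with hS
  have hSpos : 0 < S := by
    have h := hA0 B hBsum ξ
    rw [hξ] at h
    by_contra hneg
    push Not at hneg
    have : S * ‖(1 - B) ξ‖ ≤ 0 := mul_nonpos_of_nonpos_of_nonneg hneg (norm_nonneg _)
    linarith
  have hXbelow : ∀ v : H, S⁻¹ * ‖v‖ ≤ ‖(1 - B) v‖ := by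
    intro v
    have h := hA0 B hBsum v
    rw [inv_mul_le_iff₀ hSpos]
    exact h
  have hdecomp : T - z • (1 : H →L[ℂ] H) = (-z) • (1 - B) := by
    rw [hB, smul_sub, smul_smul, neg_mul, mul_inv_cancel₀ hz, neg_smul, neg_smul, one_smul]
    abel
  have hAbelow : ∀ v : H, (‖z‖ * S⁻¹) * ‖v‖ ≤ ‖(T - z • (1 : H →L[ℂ] H)) v‖ := by
    intro v
    rw [hdecomp, smul_apply, norm_smul, norm_neg, mul_assoc]
    exact mul_le_mul_of_nonneg_left (hXbelow v) (norm_nonneg z)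
  rw [hA1 _ (‖z‖ * S⁻¹) (by positivity) hAbelow]
  -- `(T - z)* (T - z) = ‖z‖² • (1 - B)* (1 - B)`
  have hstar : star (T - z • (1 : H →L[ℂ] H)) * (T - z • (1 : H →L[ℂ] H))
      = (‖z‖ ^ 2 : ℝ) • (star (1 - B) * (1 - B)) := by
    rw [hdecomp, star_smul, smul_mul_smul_comm, star_neg, neg_mul_neg]
    have : (star z * z : ℂ) = ((‖z‖ ^ 2 : ℝ) : ℂ) := by
      rw [Complex.star_def, Complex.conj_mul']; push_cast; rfl
    rw [this, Complex.coe_smul]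
  rw [hstar]
  have hspec : ∀ x ∈ spectrum ℝ (star (1 - B) * (1 - B)), x ≠ 0 := by
    intro x hx
    have h := hA0' (1 - B) S⁻¹ (by positivity) hXbelow hx
    have : 0 < S⁻¹ ^ 2 := by positivity
    linarith [h.1]
  have hlog : cfc Real.log ((‖z‖ ^ 2 : ℝ) • (star (1 - B) * (1 - B)))
      = algebraMap ℝ (H →L[ℂ] H) (Real.log (‖z‖ ^ 2)) + cfc Real.log (star (1 - B) * (1 - B)) :=
    CFC.log_smul (star (1 - B) * (1 - B)) hspec (by positivity) (IsSelfAdjoint.star_mul_self _)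
  rw [hlog, add_apply, inner_add_right, hfk, add_zero,
    Algebra.algebraMap_eq_smul_one, smul_apply,
    one_apply_eq_self]
  have h1 : inner ℂ ξ ((Real.log (‖z‖ ^ 2)) • ξ) = ((Real.log (‖z‖ ^ 2) : ℝ) : ℂ) := by
    rw [← Complex.coe_smul, inner_smul_right, inner_self_eq_norm_sq_to_K, hξ]
    simp
  rw [h1]
  have h2 : RCLike.re (((Real.log (‖z‖ ^ 2) : ℝ) : ℂ)) = Real.log (‖z‖ ^ 2) := by simp
  rw [h2, Real.log_pow]
  have h3 : ((2 : ℕ) : ℝ) * Real.log ‖z‖ / 2 = Real.log ‖z‖ := by push_cast; ring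
  rw [h3, Real.exp_log hzpos]

end Abstract

end Crest.Agent.Helper73.S0151
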