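import Crest.Agent.Helper69.S0151.Neumann
import Crest.Agent.Helper72.S0151.DetInv
import Crest.Agent.Helper73.S0151.MainCore

/-!
# S0151 — leaf A3 (Main), helper73 (second): `vectorDet_sub_smul` from the landed leaves A0
(helper69 `Neumann`) and A1 (helper72 `DetInv`), with the statement of A2 (`fk_zero`) as the only
hypothesis.  The Blueprint statement of A3 is then
`vectorDet_sub_smul_of_fk ξ hξ T hq htr hmom z hz (fun B hB h1 h2 => fk_zero ξ B hB h1 h2)`.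
-/

set_option autoImplicit false
open Crest.AnalysisR.ProductShift

namespace Crest.Agent.Helper73.S0151

section Abstract

variable {H : Type*} [NormedAddCommGroup H] [InnerProductSpace ℂ H] [CompleteSpace H]

theorem vectorDet_sub_smul_of_fk (ξ : H) (hξ : ‖ξ‖ = 1) (T : H →L[ℂ] H)
    (hq : ∀ r : ℝ, 0 < r → ∃ n₀ : ℕ, ∀ n ≥ n₀, ‖T ^ n‖ ≤ r ^ n)
    (htr : ∀ P ∈ StarAlgebra.adjoin ℂ {T}, ∀ Q ∈ StarAlgebra.adjoin ℂ {T},
      inner ℂ ξ ((P * Q) ξ) = inner ℂ ξ ((Q * P) ξ))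
    (hmom : ∀ n : ℕ, 1 ≤ n → inner ℂ ξ ((T ^ n) ξ) = 0) (z : ℂ) (hz : z ≠ 0)
    (hA2 : ∀ (B : H →L[ℂ] H), (Summable fun n : ℕ => ‖B ^ n‖) →
      (∀ P ∈ StarAlgebra.adjoin ℂ {B}, ∀ Q ∈ StarAlgebra.adjoin ℂ {B},
        inner ℂ ξ ((P * Q) ξ) = inner ℂ ξ ((Q * P) ξ)) →
      (∀ n : ℕ, 1 ≤ n → inner ℂ ξ ((B ^ n) ξ) = 0) →
      inner ℂ ξ (cfc Real.log (star (1 - B) * (1 - B)) ξ) = 0) :
    vectorDet ξ (T - z • (1 : H →L[ℂ] H)) = ‖z‖ :=
  vectorDet_sub_smul_core ξ hξ T hq htr hmom z hz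
    (fun B hB v => Crest.Agent.Helper69.S0151.norm_le_tsum_mul_norm_one_sub B hB v)
    (fun A a ha hA => Crest.Agent.Helper69.S0151.spectrum_star_mul_self_subset A a ha hA)
    (fun A a ha hA => Crest.Agent.Helper72.S0151.vectorDet_of_bddBelow ξ A a ha hA)
    hA2

end Abstract

end Crest.Agent.Helper73.S0151
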