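import Crest.Agent.Helper99.S0151.FK
import Crest.Agent.Helper73.S0151.MainOf

/-!
# S0151 — leaf A3 (Main), helper73: `vectorDet_sub_smul` (exact Blueprint name and signature),
from A0 (helper69 `Neumann`), A1 (helper72 `DetInv`) and A2 (helper99 `FK.fk_zero`).
-/

set_option autoImplicit false
open Crest.AnalysisR.ProductShift

namespace Crest.Agent.Helper73.S0151

section Abstract

variable {H : Type*} [NormedAddCommGroup H] [InnerProductSpace ℂ H] [CompleteSpace H]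

/-- Leaf A3 (Main): the case `z ≠ 0`. -/
theorem vectorDet_sub_smul (ξ : H) (hξ : ‖ξ‖ = 1) (T : H →L[ℂ] H)
    (hq : ∀ r : ℝ, 0 < r → ∃ n₀ : ℕ, ∀ n ≥ n₀, ‖T ^ n‖ ≤ r ^ n)
    (htr : ∀ P ∈ StarAlgebra.adjoin ℂ {T}, ∀ Q ∈ StarAlgebra.adjoin ℂ {T},
      inner ℂ ξ ((P * Q) ξ) = inner ℂ ξ ((Q * P) ξ))
    (hmom : ∀ n : ℕ, 1 ≤ n → inner ℂ ξ ((T ^ n) ξ) = 0) (z : ℂ) (hz : z ≠ 0) :
    vectorDet ξ (T - z • (1 : H →L[ℂ] H)) = ‖z‖ :=
  vectorDet_sub_smul_of_fk ξ hξ T hq htr hmom z hz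
    (fun B hB h1 h2 => Crest.Agent.Helper99.S0151.fk_zero ξ B hB h1 h2)

end Abstract

end Crest.Agent.Helper73.S0151
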