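import Crest.Agent.Helper73.S0151.CostSum

set_option autoImplicit false
open Crest.AnalysisR.ProductShift MeasureTheory
open scoped ENNReal

namespace Crest.Agent.Helper73.S0151

/-- the shift `(x, k) ↦ (x, k - d)` preserves `pairMeasure`. -/
theorem shiftMP (d : ℤ) :
    MeasurePreserving (fun p : (ℕ → ℝ) × ℤ => (p.1, p.2 - d)) pairMeasure pairMeasure := by
  unfold pairMeasure
  have h2 : MeasurePreserving (fun k : ℤ => k - d) (Measure.count : Measure ℤ) Measure.count :=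
    measurePreserving_sub_right _ d
  exact (MeasurePreserving.id cubeMeasure).prod h2

/-- the multiplier of `T ^ n`. -/
noncomputable def mult (θ c : ℕ → ℝ) (n : ℕ) (p : (ℕ → ℝ) × ℤ) : ℝ :=
  ∏ j ∈ Finset.range n, weight θ c (orbitPoint θ (p.2 - 1 - (j : ℤ)) p.1)

theorem mult_nonneg (θ c : ℕ → ℝ) (n : ℕ) (p : (ℕ → ℝ) × ℤ) : 0 ≤ mult θ c n p :=
  Finset.prod_nonneg (fun _ _ => weight_nonneg θ c _)

theorem mult_le (θ c : ℕ → ℝ) (hθ : ∀ i, 0 < θ i ∧ θ i < 1) (hc : ∀ i, 0 ≤ c i)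
    (n N : ℕ) (p : (ℕ → ℝ) × ℤ) :
    mult θ c n p ≤ Real.exp (-∑ i ∈ Finset.range N, c i * (⌊(n : ℝ) * θ i⌋ : ℝ)) :=
  prod_weight_orbit_le θ c hθ hc p.1 p.2 n N

/-- `T ^ n` acts by `(T^n g)(x,k) = (∏_{j<n} w(σ^{k-1-j} x)) g(x, k-n)` almost everywhere. -/
theorem T_pow_ae (θ c : ℕ → ℝ) (T : pairSpace →L[ℂ] pairSpace) (hT : IsWeightedShift θ c T)
    (n : ℕ) (g : pairSpace) :
    ((T ^ n) g : (ℕ → ℝ) × ℤ → ℂ) =ᵐ[pairMeasure]
      fun p => (mult θ c n p : ℂ) * (g : (ℕ → ℝ) × ℤ → ℂ) (p.1, p.2 - (n : ℤ)) := by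
  induction n with
  | zero =>
    refine Filter.Eventually.of_forall (fun p => ?_)
    simp [mult]
  | succ n ih =>
    have h1 := hT ((T ^ n) g)
    have h2 := (shiftMP 1).quasiMeasurePreserving.ae_eq ih
    rw [pow_succ', mul_apply_eq_comp]
    filter_upwards [h1, h2] with p hp1 hp2
    rw [hp1]
    have hp2' : ((T ^ n) g : (ℕ → ℝ) × ℤ → ℂ) (p.1, p.2 - 1)
        = (mult θ c n (p.1, p.2 - 1) : ℂ) * (g : (ℕ → ℝ) × ℤ → ℂ) (p.1, p.2 - 1 - (n : ℤ)) := hp2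
    rw [hp2', ← mul_assoc]
    have hidx : p.2 - 1 - (n : ℤ) = p.2 - ((n + 1 : ℕ) : ℤ) := by push_cast; ring
    rw [hidx]
    congr 1
    unfold mult
    rw [Finset.prod_range_succ']
    push_cast
    rw [mul_comm]
    congr 1
    · refine Finset.prod_congr rfl (fun j _ => ?_)
      have : p.2 - 1 - 1 - (j : ℤ) = p.2 - 1 - ((j : ℤ) + 1) := by ring
      simp only [this]
    · simp

/-- `‖T ^ n‖ ≤ exp (- ∑_{i<N} c_i ⌊n θ_i⌋)` for every `N`. -/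
theorem T_pow_norm_le (θ c : ℕ → ℝ) (hθ : ∀ i, 0 < θ i ∧ θ i < 1) (hc : ∀ i, 0 ≤ c i)
    (T : pairSpace →L[ℂ] pairSpace) (hT : IsWeightedShift θ c T) (n N : ℕ) :
    ‖T ^ n‖ ≤ Real.exp (-∑ i ∈ Finset.range N, c i * (⌊(n : ℝ) * θ i⌋ : ℝ)) := by
  refine ContinuousLinearMap.opNorm_le_bound _ (Real.exp_pos _).le (fun g => ?_)
  have hmp := shiftMP (n : ℤ)
  rw [← Lp.norm_compMeasurePreserving g hmp]
  refine Lp.norm_le_mul_norm_of_ae_le_mul ?_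
  filter_upwards [T_pow_ae θ c T hT n g, Lp.coeFn_compMeasurePreserving g hmp] with p hp1 hp2
  rw [hp1, hp2, norm_mul, Complex.norm_real, Real.norm_of_nonneg (mult_nonneg θ c n p)]
  exact mul_le_mul_of_nonneg_right (mult_le θ c hθ hc n N p) (norm_nonneg _)

end Crest.Agent.Helper73.S0151

namespace Crest.Agent.Helper73.S0151

/-- QUASINILPOTENT, quantitative form: `‖T ^ n‖` decays faster than every exponential. -/
theorem T_pow_norm_le_geom (θ c : ℕ → ℝ) (hθ : ∀ i, 0 < θ i ∧ θ i < 1) (hc : ∀ i, 0 ≤ c i)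
    (hpos : ∀ᵐ x ∂cubeMeasure, 0 < weight θ c x)
    (hlog : ∫⁻ x, ENNReal.ofReal (- Real.log (weight θ c x)) ∂cubeMeasure = ⊤)
    (T : pairSpace →L[ℂ] pairSpace) (hT : IsWeightedShift θ c T) (M : ℝ) :
    ∃ C : ℝ, 0 < C ∧ ∀ n : ℕ, ‖T ^ n‖ ≤ C * Real.exp (-(M * n)) := by
  obtain ⟨N, hN⟩ := exists_partial_cost_gt θ c hθ hc hpos hlog M
  refine ⟨Real.exp (∑ i ∈ Finset.range N, c i), Real.exp_pos _, fun n => ?_⟩
  refine (T_pow_norm_le θ c hθ hc T hT n N).trans ?_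
  rw [← Real.exp_add, Real.exp_le_exp]
  have h1 : ∀ i ∈ Finset.range N, c i * ((n : ℝ) * θ i - 1) ≤ c i * (⌊(n : ℝ) * θ i⌋ : ℝ) :=
    fun i _ => mul_le_mul_of_nonneg_left (Int.sub_one_lt_floor _).le (hc i)
  have h2 := Finset.sum_le_sum h1
  have h3 : ∑ i ∈ Finset.range N, c i * ((n : ℝ) * θ i - 1)
      = (n : ℝ) * ∑ i ∈ Finset.range N, c i * θ i - ∑ i ∈ Finset.range N, c i := by
    rw [Finset.mul_sum, ← Finset.sum_sub_distrib]
    exact Finset.sum_congr rfl (fun i _ => by ring)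
  have h4 : M * (n : ℝ) ≤ (n : ℝ) * ∑ i ∈ Finset.range N, c i * θ i := by
    rw [mul_comm]; exact mul_le_mul_of_nonneg_left hN.le (Nat.cast_nonneg n)
  linarith

/-- `∑ r^n ‖T^n‖ < ∞` for every `r ≥ 0`. -/
theorem summable_pow_mul_norm_T_pow (θ c : ℕ → ℝ) (hθ : ∀ i, 0 < θ i ∧ θ i < 1)
    (hc : ∀ i, 0 ≤ c i) (hpos : ∀ᵐ x ∂cubeMeasure, 0 < weight θ c x)
    (hlog : ∫⁻ x, ENNReal.ofReal (- Real.log (weight θ c x)) ∂cubeMeasure = ⊤)
    (T : pairSpace →L[ℂ] pairSpace) (hT : IsWeightedShift θ c T) (r : ℝ) (hr : 0 ≤ r) :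
    Summable (fun n : ℕ => r ^ n * ‖T ^ n‖) := by
  obtain ⟨C, hC, hbound⟩ := T_pow_norm_le_geom θ c hθ hc hpos hlog T hT (Real.log (2 * r + 1))
  have hpos' : (0 : ℝ) < 2 * r + 1 := by linarith
  have hq : r / (2 * r + 1) < 1 := by rw [div_lt_one hpos']; linarith
  have hq0 : 0 ≤ r / (2 * r + 1) := div_nonneg hr hpos'.le
  refine Summable.of_nonneg_of_le (fun n => mul_nonneg (pow_nonneg hr n) (norm_nonneg _))
    (fun n => ?_) ((summable_geometric_of_lt_one hq0 hq).mul_left C)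
  have h1 := hbound n
  have h2 : Real.exp (-(Real.log (2 * r + 1) * n)) = ((2 * r + 1) ^ n)⁻¹ := by
    rw [Real.exp_neg, mul_comm, Real.exp_nat_mul, Real.exp_log hpos']
  rw [h2] at h1
  calc r ^ n * ‖T ^ n‖ ≤ r ^ n * (C * ((2 * r + 1) ^ n)⁻¹) :=
        mul_le_mul_of_nonneg_left h1 (pow_nonneg hr n)
    _ = C * (r / (2 * r + 1)) ^ n := by
        rw [div_pow]; field_simp

end Crest.Agent.Helper73.S0151
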