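import Crest.Agent.Helper96.S0151.Defs
import Crest.Agent.Helper73.S0151.Shift

/-!
# S0151 — leaf C8 (Quasi), helper73: `norm_pow_le`, `tau_pow`.
Self-contained (uses only `Helper96/S0151/Defs` and helper73's own `Weights`, `CostSum`, `Shift`).
-/

set_option autoImplicit false
open Crest.AnalysisR.ProductShift MeasureTheory
open scoped ENNReal

namespace Crest.Agent.Helper73.S0151

open Crest.Agent.Helper96.S0151

/-- Leaf C8: `‖T ^ n‖ ≤ exp (- dropSum θ c N n)`. -/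
theorem norm_pow_le (θ c : ℕ → ℝ) (hθ : ∀ i, 0 < θ i ∧ θ i < 1) (hc : ∀ i, 0 ≤ c i)
    (T : pairSpace →L[ℂ] pairSpace) (hT : IsWeightedShift θ c T) (N n : ℕ) :
    ‖T ^ n‖ ≤ Real.exp (- dropSum θ c N n) :=
  T_pow_norm_le θ c hθ hc T hT n N

/-- Leaf C8: the vacuum moments of `T` vanish. -/
theorem tau_pow (θ c : ℕ → ℝ) (T : pairSpace →L[ℂ] pairSpace) (hT : IsWeightedShift θ c T)
    (n : ℕ) (hn : 1 ≤ n) : tau (T ^ n) = 0 := by
  unfold tau
  rw [MeasureTheory.L2.inner_def]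
  have hξ : (vacuumVector : (ℕ → ℝ) × ℤ → ℂ) =ᵐ[pairMeasure]
      (Set.univ ×ˢ ({0} : Set ℤ)).indicator (fun _ => (1 : ℂ)) := by
    unfold vacuumVector
    exact indicatorConstLp_coeFn
  have hξ' := (shiftMP (n : ℤ)).quasiMeasurePreserving.ae_eq hξ
  have hT' := T_pow_ae θ c T hT n vacuumVector
  have h0 : (fun p : (ℕ → ℝ) × ℤ => inner ℂ ((vacuumVector : (ℕ → ℝ) × ℤ → ℂ) p)
      (((T ^ n) vacuumVector : (ℕ → ℝ) × ℤ → ℂ) p)) =ᵐ[pairMeasure] fun _ => (0 : ℂ) := by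
    filter_upwards [hξ, hξ', hT'] with p h1 h2 h3
    have h2' : (vacuumVector : (ℕ → ℝ) × ℤ → ℂ) (p.1, p.2 - (n : ℤ))
        = (Set.univ ×ˢ ({0} : Set ℤ)).indicator (fun _ => (1 : ℂ)) (p.1, p.2 - (n : ℤ)) := h2
    rw [h3, h2', h1]
    by_cases hp : p.2 = 0
    · have : (p.1, p.2 - (n : ℤ)) ∉ (Set.univ ×ˢ ({0} : Set ℤ) : Set ((ℕ → ℝ) × ℤ)) := by
        simp only [Set.mem_prod, Set.mem_univ, Set.mem_singleton_iff, true_and]
        omega
      rw [Set.indicator_of_notMem this]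
      simp
    · have : p ∉ (Set.univ ×ˢ ({0} : Set ℤ) : Set ((ℕ → ℝ) × ℤ)) := by
        simp only [Set.mem_prod, Set.mem_univ, Set.mem_singleton_iff, true_and]
        exact hp
      rw [Set.indicator_of_notMem this]
      simp
  rw [integral_congr_ae h0]
  simp

end Crest.Agent.Helper73.S0151
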