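import Crest.Prelude.Def_ProductShift

set_option autoImplicit false
open Crest.AnalysisR.ProductShift MeasureTheory
open scoped ENNReal

namespace Crest.Agent.Helper73.S0151

/-- telescoping: `⌊fract u + t⌋ = ⌊u + t⌋ - ⌊u⌋`. -/
theorem floor_fract_add (u t : ℝ) : ⌊Int.fract u + t⌋ = ⌊u + t⌋ - ⌊u⌋ := by
  have h : Int.fract u + t = (u + t) - (⌊u⌋ : ℝ) := by
    rw [Int.fract]; ring
  rw [h, Int.floor_sub_intCast]

/-- one coordinate, summed along `n` consecutive orbit points ending at step `k - 1`. -/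
theorem sum_floor_orbit (x θ : ℝ) (k : ℤ) (n : ℕ) :
    ∑ j ∈ Finset.range n, ⌊Int.fract (x + ((k - 1 - (j : ℤ) : ℤ) : ℝ) * θ) + θ⌋
      = ⌊x + (k : ℝ) * θ⌋ - ⌊x + ((k - (n : ℤ) : ℤ) : ℝ) * θ⌋ := by
  induction n with
  | zero => simp
  | succ n ih =>
    rw [Finset.sum_range_succ, ih, floor_fract_add]
    have h1 : x + ((k - 1 - (n : ℤ) : ℤ) : ℝ) * θ + θ = x + ((k - (n : ℤ) : ℤ) : ℝ) * θ := by
      push_cast; ring
    have h2 : ((k - ((n + 1 : ℕ) : ℤ) : ℤ) : ℝ) = ((k - 1 - (n : ℤ) : ℤ) : ℝ) := by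
      push_cast; ring
    rw [h1, h2]; ring

theorem floor_nat_mul_le (x θ : ℝ) (k : ℤ) (n : ℕ) :
    ⌊(n : ℝ) * θ⌋ ≤ ⌊x + (k : ℝ) * θ⌋ - ⌊x + ((k - (n : ℤ) : ℤ) : ℝ) * θ⌋ := by
  have h : x + (k : ℝ) * θ = (x + ((k - (n : ℤ) : ℤ) : ℝ) * θ) + (n : ℝ) * θ := by
    push_cast; ring
  rw [h]
  have := Int.le_floor_add (x + ((k - (n : ℤ) : ℤ) : ℝ) * θ) ((n : ℝ) * θ)
  linarith

end Crest.Agent.Helper73.S0151

namespace Crest.Agent.Helper73.S0151

theorem weight_nonneg (θ c : ℕ → ℝ) (x : ℕ → ℝ) : 0 ≤ weight θ c x := by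
  unfold weight; split_ifs
  · exact le_rfl
  · exact (Real.exp_pos _).le

theorem weight_le_one (θ c : ℕ → ℝ) (x : ℕ → ℝ) : weight θ c x ≤ 1 := by
  unfold weight; split_ifs
  · exact zero_le_one
  · exact Real.exp_le_one_iff.mpr (neg_nonpos.mpr ENNReal.toReal_nonneg)

/-- lower bound of the (finite) drop by a finite partial sum. -/
theorem partial_le_dropCost_toReal (θ c : ℕ → ℝ) (y : ℕ → ℝ)
    (hnn : ∀ i, 0 ≤ c i * (⌊y i + θ i⌋ : ℝ)) (hfin : dropCost θ c y ≠ ⊤) (N : ℕ) :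
    ∑ i ∈ Finset.range N, c i * (⌊y i + θ i⌋ : ℝ) ≤ (dropCost θ c y).toReal := by
  have h1 : ∑ i ∈ Finset.range N, ENNReal.ofReal (c i * (⌊y i + θ i⌋ : ℝ)) ≤ dropCost θ c y :=
    ENNReal.sum_le_tsum _
  have h2 := ENNReal.toReal_mono hfin h1
  rw [ENNReal.toReal_sum (fun i _ => ENNReal.ofReal_ne_top)] at h2
  have h3 : ∑ i ∈ Finset.range N, (ENNReal.ofReal (c i * (⌊y i + θ i⌋ : ℝ))).toReal
      = ∑ i ∈ Finset.range N, c i * (⌊y i + θ i⌋ : ℝ) :=
    Finset.sum_congr rfl (fun i _ => ENNReal.toReal_ofReal (hnn i))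
  rw [h3] at h2; exact h2

/-- KEY POINTWISE BOUND (all `x`, all `k`): the product of the weights along `n` consecutive orbit
points is at most `exp (- ∑_{i<N} c_i ⌊n θ_i⌋)`, for every `N`. -/
theorem prod_weight_orbit_le (θ c : ℕ → ℝ) (hθ : ∀ i, 0 < θ i ∧ θ i < 1) (hc : ∀ i, 0 ≤ c i)
    (x : ℕ → ℝ) (k : ℤ) (n N : ℕ) :
    ∏ j ∈ Finset.range n, weight θ c (orbitPoint θ (k - 1 - (j : ℤ)) x)
      ≤ Real.exp (-∑ i ∈ Finset.range N, c i * (⌊(n : ℝ) * θ i⌋ : ℝ)) := by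
  by_cases htop : ∃ j ∈ Finset.range n, dropCost θ c (orbitPoint θ (k - 1 - (j : ℤ)) x) = ⊤
  · obtain ⟨j, hj, hjt⟩ := htop
    have : weight θ c (orbitPoint θ (k - 1 - (j : ℤ)) x) = 0 := by
      unfold weight; rw [if_pos hjt]
    rw [Finset.prod_eq_zero hj this]
    exact (Real.exp_pos _).le
  · push Not at htop
    have hw : ∀ j ∈ Finset.range n, weight θ c (orbitPoint θ (k - 1 - (j : ℤ)) x)
        = Real.exp (-(dropCost θ c (orbitPoint θ (k - 1 - (j : ℤ)) x)).toReal) := by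
      intro j hj; unfold weight; rw [if_neg (htop j hj)]
    rw [Finset.prod_congr rfl hw, ← Real.exp_sum, Real.exp_le_exp, Finset.sum_neg_distrib,
      neg_le_neg_iff]
    have hnn : ∀ (j : ℕ) (i : ℕ), 0 ≤ c i * (⌊orbitPoint θ (k - 1 - (j : ℤ)) x i + θ i⌋ : ℝ) := by
      intro j i
      refine mul_nonneg (hc i) ?_
      have : (0 : ℤ) ≤ ⌊orbitPoint θ (k - 1 - (j : ℤ)) x i + θ i⌋ := by
        apply Int.floor_nonneg.mpr
        have := Int.fract_nonneg (x i + ((k - 1 - (j : ℤ) : ℤ) : ℝ) * θ i)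
        unfold orbitPoint; linarith [(hθ i).1]
      exact_mod_cast this
    calc ∑ i ∈ Finset.range N, c i * (⌊(n : ℝ) * θ i⌋ : ℝ)
        ≤ ∑ i ∈ Finset.range N, c i *
            ((⌊x i + (k : ℝ) * θ i⌋ - ⌊x i + ((k - (n : ℤ) : ℤ) : ℝ) * θ i⌋ : ℤ) : ℝ) := by
          refine Finset.sum_le_sum (fun i _ => mul_le_mul_of_nonneg_left ?_ (hc i))
          exact_mod_cast floor_nat_mul_le (x i) (θ i) k n
      _ = ∑ i ∈ Finset.range N, ∑ j ∈ Finset.range n,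
            c i * (⌊orbitPoint θ (k - 1 - (j : ℤ)) x i + θ i⌋ : ℝ) := by
          refine Finset.sum_congr rfl (fun i _ => ?_)
          rw [← Finset.mul_sum, ← sum_floor_orbit (x i) (θ i) k n]
          push_cast
          congr 1
          refine Finset.sum_congr rfl (fun j _ => ?_)
          simp only [orbitPoint]
          push_cast; rfl
      _ = ∑ j ∈ Finset.range n, ∑ i ∈ Finset.range N,
            c i * (⌊orbitPoint θ (k - 1 - (j : ℤ)) x i + θ i⌋ : ℝ) := Finset.sum_comm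
      _ ≤ ∑ j ∈ Finset.range n, (dropCost θ c (orbitPoint θ (k - 1 - (j : ℤ)) x)).toReal := by
          refine Finset.sum_le_sum (fun j hj => ?_)
          exact partial_le_dropCost_toReal θ c _ (hnn j) (htop j hj) N

end Crest.Agent.Helper73.S0151
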